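import Vale.Agent.P315.H155.Auto

/-!
P315: numbers of the machines. The machine number
`q = a0 + (g+1) * (b0 + (2g+1) * (l + NL * (o + Dl * (r + R * sm))))` has the entry node `a0 ≤ g`,
the exit node `b0 ≤ 2g`, the class `l < NL`, the offset `o < Dl`, the instance `r < R` and the
sample `sm < Sm`.
-/

set_option autoImplicit false

namespace Vale.Agent.P315.H220

open Vale.Agent.Lib.PolyTime Vale.Agent.P315.H155

/-- Number of machines. -/
def cntQ (g NL Dl R Sm : ℕ) : ℕ := (g + 1) * ((2 * g + 1) * (NL * (Dl * (R * Sm))))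

/-- Code. -/
def encQ (g NL Dl R a0 b0 l o r sm : ℕ) : ℕ :=
  a0 + (g + 1) * (b0 + (2 * g + 1) * (l + NL * (o + Dl * (r + R * sm))))

/-- Entry node. -/
def qA (g q : ℕ) : ℕ := q % (g + 1)

/-- Exit node. -/
def qB (g q : ℕ) : ℕ := q / (g + 1) % (2 * g + 1)

/-- Class. -/
def qL (g NL q : ℕ) : ℕ := q / (g + 1) / (2 * g + 1) % NL

/-- Offset. -/
def qO (g NL Dl q : ℕ) : ℕ := q / (g + 1) / (2 * g + 1) / NL % Dl

/-- Number of the instance. -/
def qR (g NL Dl R q : ℕ) : ℕ := q / (g + 1) / (2 * g + 1) / NL / Dl % R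

/-- Sample. -/
def qS (g NL Dl R q : ℕ) : ℕ := q / (g + 1) / (2 * g + 1) / NL / Dl / R

theorem mod_enc {a n x : ℕ} (h : a < n) : (a + n * x) % n = a := by
  rw [Nat.add_mul_mod_self_left, Nat.mod_eq_of_lt h]

theorem div_enc {a n x : ℕ} (h : a < n) : (a + n * x) / n = x := by
  rw [Nat.add_mul_div_left _ _ (by omega), Nat.div_eq_of_lt h, zero_add]

section

variable {g NL Dl R a0 b0 l o r sm : ℕ}

theorem qA_enc (ha : a0 ≤ g) : qA g (encQ g NL Dl R a0 b0 l o r sm) = a0 := by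
  unfold qA encQ
  exact mod_enc (by omega)

theorem qB_enc (ha : a0 ≤ g) (hb : b0 ≤ 2 * g) :
    qB g (encQ g NL Dl R a0 b0 l o r sm) = b0 := by
  unfold qB encQ
  rw [div_enc (show a0 < g + 1 by omega)]
  exact mod_enc (by omega)

theorem qL_enc (ha : a0 ≤ g) (hb : b0 ≤ 2 * g) (hl : l < NL) :
    qL g NL (encQ g NL Dl R a0 b0 l o r sm) = l := by
  unfold qL encQ
  rw [div_enc (show a0 < g + 1 by omega), div_enc (show b0 < 2 * g + 1 by omega)]
  exact mod_enc hl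

theorem qO_enc (ha : a0 ≤ g) (hb : b0 ≤ 2 * g) (hl : l < NL) (ho : o < Dl) :
    qO g NL Dl (encQ g NL Dl R a0 b0 l o r sm) = o := by
  unfold qO encQ
  rw [div_enc (show a0 < g + 1 by omega), div_enc (show b0 < 2 * g + 1 by omega), div_enc hl]
  exact mod_enc ho

theorem qR_enc (ha : a0 ≤ g) (hb : b0 ≤ 2 * g) (hl : l < NL) (ho : o < Dl) (hr : r < R) :
    qR g NL Dl R (encQ g NL Dl R a0 b0 l o r sm) = r := by
  unfold qR encQ
  rw [div_enc (show a0 < g + 1 by omega), div_enc (show b0 < 2 * g + 1 by omega), div_enc hl,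
    div_enc ho]
  exact mod_enc hr

theorem qS_enc (ha : a0 ≤ g) (hb : b0 ≤ 2 * g) (hl : l < NL) (ho : o < Dl) (hr : r < R) :
    qS g NL Dl R (encQ g NL Dl R a0 b0 l o r sm) = sm := by
  unfold qS encQ
  rw [div_enc (show a0 < g + 1 by omega), div_enc (show b0 < 2 * g + 1 by omega), div_enc hl,
    div_enc ho, div_enc hr]

/-- All decoders at once. -/
theorem dec_enc (ha : a0 ≤ g) (hb : b0 ≤ 2 * g) (hl : l < NL) (ho : o < Dl) (hr : r < R) :
    qA g (encQ g NL Dl R a0 b0 l o r sm) = a0 ∧ qB g (encQ g NL Dl R a0 b0 l o r sm) = b0 ∧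
    qL g NL (encQ g NL Dl R a0 b0 l o r sm) = l ∧ qO g NL Dl (encQ g NL Dl R a0 b0 l o r sm) = o ∧
    qR g NL Dl R (encQ g NL Dl R a0 b0 l o r sm) = r ∧
    qS g NL Dl R (encQ g NL Dl R a0 b0 l o r sm) = sm :=
  ⟨qA_enc ha, qB_enc ha hb, qL_enc ha hb hl, qO_enc ha hb hl ho, qR_enc ha hb hl ho hr,
    qS_enc ha hb hl ho hr⟩

theorem enc_lt_aux {a n x X : ℕ} (ha : a < n) (hx : x < X) : a + n * x < n * X := by
  calc a + n * x < n + n * x := by omega
    _ = n * (x + 1) := by ring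
    _ ≤ n * X := Nat.mul_le_mul_left _ hx

theorem enc_lt {Sm : ℕ} (ha : a0 ≤ g) (hb : b0 ≤ 2 * g) (hl : l < NL) (ho : o < Dl) (hr : r < R)
    (hs : sm < Sm) : encQ g NL Dl R a0 b0 l o r sm < cntQ g NL Dl R Sm := by
  unfold encQ cntQ
  exact enc_lt_aux (by omega) (enc_lt_aux (by omega) (enc_lt_aux hl (enc_lt_aux ho
    (enc_lt_aux hr hs))))

theorem enc_inj_sm {sm' : ℕ} (ha : a0 ≤ g) (hb : b0 ≤ 2 * g) (hl : l < NL) (ho : o < Dl)
    (hr : r < R) (h : encQ g NL Dl R a0 b0 l o r sm = encQ g NL Dl R a0 b0 l o r sm') :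
    sm = sm' := by
  have h1 := qS_enc (sm := sm) ha hb hl ho hr
  rw [h, qS_enc ha hb hl ho hr] at h1
  exact h1.symm

/-- Every number is a code. -/
theorem enc_dec (q : ℕ) : encQ g NL Dl R (qA g q) (qB g q) (qL g NL q) (qO g NL Dl q)
    (qR g NL Dl R q) (qS g NL Dl R q) = q := by
  unfold encQ qA qB qL qO qR qS
  rw [Nat.mod_add_div, Nat.mod_add_div, Nat.mod_add_div, Nat.mod_add_div, Nat.mod_add_div]

theorem qA_le (q : ℕ) : qA g q ≤ g := Nat.lt_succ_iff.1 (Nat.mod_lt _ (by omega))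

theorem qB_le (q : ℕ) : qB g q ≤ 2 * g := Nat.lt_succ_iff.1 (Nat.mod_lt _ (by omega))

theorem qL_lt (q : ℕ) (h : 0 < NL) : qL g NL q < NL := Nat.mod_lt _ h

theorem qO_lt (q : ℕ) (h : 0 < Dl) : qO g NL Dl q < Dl := Nat.mod_lt _ h

theorem qR_lt (q : ℕ) (h : 0 < R) : qR g NL Dl R q < R := Nat.mod_lt _ h

theorem qS_lt {Sm q : ℕ} (h : q < cntQ g NL Dl R Sm) : qS g NL Dl R q < Sm := by
  unfold qS
  unfold cntQ at h
  have h1 := Nat.div_lt_of_lt_mul h
  have h2 := Nat.div_lt_of_lt_mul h1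
  have h3 := Nat.div_lt_of_lt_mul h2
  have h4 := Nat.div_lt_of_lt_mul h3
  exact Nat.div_lt_of_lt_mul h4

theorem pos_of_lt {Sm q : ℕ} (h : q < cntQ g NL Dl R Sm) : 0 < NL ∧ 0 < Dl ∧ 0 < R ∧ 0 < Sm := by
  unfold cntQ at h
  refine ⟨?_, ?_, ?_, ?_⟩
  · rcases Nat.eq_zero_or_pos NL with h0 | h0
    · rw [h0] at h; simp at h
    · exact h0
  · rcases Nat.eq_zero_or_pos Dl with h0 | h0
    · rw [h0] at h; simp at h
    · exact h0
  · rcases Nat.eq_zero_or_pos R with h0 | h0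
    · rw [h0] at h; simp at h
    · exact h0
  · rcases Nat.eq_zero_or_pos Sm with h0 | h0
    · rw [h0] at h; simp at h
    · exact h0

/-- The number of machines, as a bound by powers. -/
theorem cntQ_le {a b c d e f : ℕ} {Sm : ℕ} (h1 : g + 1 ≤ 2 ^ a) (h2 : 2 * g + 1 ≤ 2 ^ b)
    (h3 : NL ≤ 2 ^ c) (h4 : Dl ≤ 2 ^ d) (h5 : R ≤ 2 ^ e) (h6 : Sm ≤ 2 ^ f) :
    cntQ g NL Dl R Sm ≤ 2 ^ (a + b + c + d + e + f) := by
  unfold cntQ
  have e1 : 2 ^ (a + b + c + d + e + f) =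
      2 ^ a * (2 ^ b * (2 ^ c * (2 ^ d * (2 ^ e * 2 ^ f)))) := by
    simp only [pow_add]; ring
  rw [e1]
  gcongr

end

/-! ### Polynomial time -/

section PT

variable {A : Set Word} {α : Type*} [Enc α] {g NL Dl R Sm q : α → ℕ}

@[fun_prop]
theorem PT_cntQ (hg : PT A g) (hN : PT A NL) (hD : PT A Dl) (hR : PT A R) (hS : PT A Sm) :
    PT A (fun x => cntQ (g x) (NL x) (Dl x) (R x) (Sm x)) := by
  unfold cntQ; fun_prop

@[fun_prop]
theorem PT_qA (hg : PT A g) (hq : PT A q) : PT A (fun x => qA (g x) (q x)) := by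
  unfold qA; fun_prop

@[fun_prop]
theorem PT_qB (hg : PT A g) (hq : PT A q) : PT A (fun x => qB (g x) (q x)) := by
  unfold qB; fun_prop

@[fun_prop]
theorem PT_qL (hg : PT A g) (hN : PT A NL) (hq : PT A q) :
    PT A (fun x => qL (g x) (NL x) (q x)) := by
  unfold qL; fun_prop

@[fun_prop]
theorem PT_qO (hg : PT A g) (hN : PT A NL) (hD : PT A Dl) (hq : PT A q) :
    PT A (fun x => qO (g x) (NL x) (Dl x) (q x)) := by
  unfold qO; fun_prop

@[fun_prop]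
theorem PT_qR (hg : PT A g) (hN : PT A NL) (hD : PT A Dl) (hR : PT A R) (hq : PT A q) :
    PT A (fun x => qR (g x) (NL x) (Dl x) (R x) (q x)) := by
  unfold qR; fun_prop

@[fun_prop]
theorem PT_qS (hg : PT A g) (hN : PT A NL) (hD : PT A Dl) (hR : PT A R) (hq : PT A q) :
    PT A (fun x => qS (g x) (NL x) (Dl x) (R x) (q x)) := by
  unfold qS; fun_prop

@[fun_prop]
theorem PT_encQ {a0 b0 l o r sm : α → ℕ} (hg : PT A g) (hN : PT A NL) (hD : PT A Dl)
    (hR : PT A R) (h1 : PT A a0) (h2 : PT A b0) (h3 : PT A l) (h4 : PT A o) (h5 : PT A r)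
    (h6 : PT A sm) :
    PT A (fun x => encQ (g x) (NL x) (Dl x) (R x) (a0 x) (b0 x) (l x) (o x) (r x) (sm x)) := by
  unfold encQ; fun_prop

@[fun_prop]
theorem PBd_qA (hg : PBd g) : PBd (fun x => qA (g x) (q x)) :=
  hg.mono fun _ => qA_le _

@[fun_prop]
theorem PBd_qO_of (hq : PBd q) : PBd (fun x => qO (g x) (NL x) (Dl x) (q x)) := by
  unfold qO; fun_prop

end PT

end Vale.Agent.P315.H220
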