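import Vale.Agent.P315.H801.LaneSpec

/-!
P315: the value of the cheapest path in the layered graph of one round, for costs given by a
function; list tables; number of blocks of one class by telescoping.
-/

set_option autoImplicit false

namespace Vale.Agent.P315.H220

open Vale.Agent.P315.H763 Vale.Agent.P315.H801

export Vale.Agent.P315.H801 (tabOf histOf WD nn_tabOf ent3_tabOf tabAt_histOf W_histOf clsL_histOf)

theorem ent3_tabOf_out {K p : ℕ} {f : ℕ → ℕ → ℕ → ℕ} {i u v : ℕ}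
    (h : ¬ (i < K ∧ u < p ∧ v < p)) : ent3 (tabOf K p f) i u v = 0 := by
  unfold ent3 tabOf ent2
  have key : ∀ {β : Type} (n : ℕ) (g : ℕ → β) (d : β) {i : ℕ}, ¬ i < n →
      ((List.range n).map g).getD i d = d := by
    intro β n g d i h
    rw [List.getD_eq_getElem?_getD, List.getElem?_eq_none (by simpa using h)]
    rfl
  by_cases hi : i < K
  · rw [getD_map_range _ _ _ hi]
    by_cases hu : u < p
    · rw [getD_map_range _ _ _ hu]
      by_cases hv : v < p
      · exact absurd ⟨hi, hu, hv⟩ h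
      · rw [key _ _ _ hv]
    · rw [key _ _ _ hu]; rfl
  · rw [key _ _ _ hi]; rfl

theorem length_histOf (K p : ℕ) (D : ℕ → ℕ → ℕ → ℕ → ℕ) (t : ℕ) :
    (histOf K p D t).length = t + 1 := by simp [histOf]

/-- The value is attained and is minimal. -/
theorem wd_spec {K p a b : ℕ} (f : ℕ → ℕ → ℕ → ℕ) (hK : 0 < K) (ha : a < p) (hb : b < p) :
    (∃ g : ℕ → ℕ, g 0 = a ∧ g K = b ∧ (∀ i ≤ K, g i < p) ∧
      WD K p a b f = ∑ i ∈ Finset.range K, f i (g i) (g (i + 1))) ∧
    ∀ g : ℕ → ℕ, g 0 = a → g K = b → (∀ i ≤ K, g i < p) →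
      WD K p a b f ≤ ∑ i ∈ Finset.range K, f i (g i) (g (i + 1)) := by
  have hne : tabOf K p f ≠ [] := by
    intro h
    have h1 := tabOf_length K p f
    rw [h] at h1
    simp at h1
    omega
  have hl : (tabOf K p f).tail.length + 1 = K := by
    rw [List.length_tail, tabOf_length]; omega
  have h := inv_fold a (nn (tabOf K p f)) (tabOf K p f) hne (tabOf K p f).tail.length le_rfl
  rw [List.take_length, hl] at h
  have hcost : ∀ g : ℕ → ℕ, (∀ i ≤ K, g i < p) → cost (tabOf K p f) g K =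
      ∑ i ∈ Finset.range K, f i (g i) (g (i + 1)) := by
    intro g hg
    unfold cost
    refine Finset.sum_congr rfl fun i hi => ?_
    have := Finset.mem_range.mp hi
    exact ent3_tabOf f this (hg _ (by omega)) (hg _ (by omega))
  rw [nn_tabOf hK f] at h
  obtain ⟨⟨g, g0, gK, gj, -, hg1⟩, hmin⟩ := h b hb
  have hrun : WD K p a b f =
      ((List.foldl (spStep p) (spInit p a ((tabOf K p f).headD [])) (tabOf K p f).tail).getD b
        (0, [])).1 := by
    unfold WD spRun
    rw [nn_tabOf hK f]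
  have hgall : ∀ i ≤ K, g i < p := by
    intro i hi
    rcases Nat.eq_zero_or_pos i with rfl | h0
    · rw [g0]; exact ha
    rcases Nat.lt_or_ge i K with h1 | h1
    · exact gj i h0 h1
    · obtain rfl : i = K := by omega
      rw [gK]; exact hb
  refine ⟨⟨g, g0, gK, hgall, ?_⟩, fun g' g0' gK' hg' => ?_⟩
  · rw [hrun, hg1, hcost g hgall]
  · rw [hrun, ← hcost g' hg']
    exact hmin g' g0' gK' fun i _ hi => hg' i (by omega)

/-- Monotonicity in the costs on nodes `< p`. -/
theorem wd_mono {K p a b : ℕ} {f f' : ℕ → ℕ → ℕ → ℕ} (hK : 0 < K) (ha : a < p) (hb : b < p)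
    (h : ∀ i < K, ∀ u < p, ∀ v < p, f i u v ≤ f' i u v) :
    WD K p a b f ≤ WD K p a b f' := by
  obtain ⟨⟨g, g0, gK, hg, h1⟩, -⟩ := wd_spec f' hK ha hb
  refine ((wd_spec f hK ha hb).2 g g0 gK hg).trans ?_
  rw [h1]
  refine Finset.sum_le_sum fun i hi => ?_
  have := Finset.mem_range.mp hi
  exact h i this _ (hg _ (by omega)) _ (hg _ (by omega))

theorem wd_congr {K p a b : ℕ} {f f' : ℕ → ℕ → ℕ → ℕ}
    (h : ∀ i < K, ∀ u < p, ∀ v < p, f i u v = f' i u v) :
    WD K p a b f = WD K p a b f' := by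
  have : tabOf K p f = tabOf K p f' := by
    unfold tabOf
    refine List.map_congr_left fun i hi => List.map_congr_left fun u hu =>
      List.map_congr_left fun v hv => ?_
    exact h i (List.mem_range.1 hi) u (List.mem_range.1 hu) v (List.mem_range.1 hv)
  unfold WD
  rw [this]

/-- Lipschitz in the costs. -/
theorem wd_le_add {K p a b : ℕ} {f f' : ℕ → ℕ → ℕ → ℕ} (hK : 0 < K) (ha : a < p) (hb : b < p)
    {e : ℕ} (h : ∀ i < K, ∀ u < p, ∀ v < p, f i u v ≤ f' i u v + e) :
    WD K p a b f ≤ WD K p a b f' + K * e := by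
  obtain ⟨⟨g, g0, gK, hg, h1⟩, -⟩ := wd_spec f' hK ha hb
  refine ((wd_spec f hK ha hb).2 g g0 gK hg).trans ?_
  rw [h1]
  have h2 : ∑ i ∈ Finset.range K, (f' i (g i) (g (i + 1)) + e) =
      ∑ i ∈ Finset.range K, f' i (g i) (g (i + 1)) + K * e := by
    rw [Finset.sum_add_distrib]; simp
  rw [← h2]
  refine Finset.sum_le_sum fun i hi => ?_
  have := Finset.mem_range.mp hi
  exact h i this _ (hg _ (by omega)) _ (hg _ (by omega))

theorem blo_mono {Dl o β β' : ℕ} (h : β ≤ β') : blo Dl o β ≤ blo Dl o β' := by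
  unfold blo
  have : β * Dl ≤ β' * Dl := Nat.mul_le_mul_right _ h
  omega

/-- Telescoping, for any antitone value: the number of blocks with drop `≥ c1` is at most
`V 0 / c1`. -/
theorem card_drop_mul_le {V : ℕ → ℕ} (hV : ∀ t, V (t + 1) ≤ V t) (Dl o c1 N : ℕ)
    (act : ℕ → Prop) [DecidablePred act]
    (hact : ∀ β, act β → c1 ≤ V (blo Dl o β) - V (blo Dl o (β + 1))) :
    ((Finset.range N).filter act).card * c1 + V (blo Dl o N) ≤ V 0 := by
  have hanti : ∀ {x y}, x ≤ y → V y ≤ V x := fun {x y} hxy => antitone_nat_of_succ_le hV hxy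
  induction N with
  | zero =>
    simp only [Finset.range_zero, Finset.filter_empty, Finset.card_empty, zero_mul, zero_add]
    exact hanti (Nat.zero_le _)
  | succ N ih =>
    have h2 : V (blo Dl o (N + 1)) ≤ V (blo Dl o N) := hanti (blo_mono (by omega))
    rw [Finset.range_add_one, Finset.filter_insert]
    by_cases hc : act N
    · have h3 := hact N hc
      rw [if_pos hc, Finset.card_insert_of_notMem (by simp), add_mul]
      omega
    · rw [if_neg hc]
      omega

/-- The decrease of the value over the blocks. -/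
theorem wd_anti {K p a b : ℕ} {D : ℕ → ℕ → ℕ → ℕ → ℕ} (hK : 0 < K) (ha : a < p) (hb : b < p)
    (hD : ∀ t, ∀ i < K, ∀ u < p, ∀ v < p, D (t + 1) i u v ≤ D t i u v) (t : ℕ) :
    WD K p a b (D (t + 1)) ≤ WD K p a b (D t) :=
  wd_mono hK ha hb (hD t)

/-- Number of blocks of the class `[c1, c0)` before the block `N`. -/
theorem card_act_mul_le {K p a b : ℕ} {D : ℕ → ℕ → ℕ → ℕ → ℕ} (hK : 0 < K) (ha : a < p)
    (hb : b < p) (hD : ∀ t, ∀ i < K, ∀ u < p, ∀ v < p, D (t + 1) i u v ≤ D t i u v)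
    (Dl o c0 c1 N : ℕ) :
    ((Finset.range N).filter fun β =>
      c1 ≤ WD K p a b (D (blo Dl o β)) - WD K p a b (D (blo Dl o (β + 1))) ∧
      WD K p a b (D (blo Dl o β)) - WD K p a b (D (blo Dl o (β + 1))) < c0).card * c1 ≤
      WD K p a b (D 0) := by
  have := card_drop_mul_le (V := fun t => WD K p a b (D t)) (wd_anti hK ha hb hD) Dl o c1 N
    (fun β => c1 ≤ WD K p a b (D (blo Dl o β)) - WD K p a b (D (blo Dl o (β + 1))) ∧
      WD K p a b (D (blo Dl o β)) - WD K p a b (D (blo Dl o (β + 1))) < c0) fun β h => h.1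
  omega

/-- Number of class blocks seen by the machine: `length * c1 ≤ WD (D 0)`. -/
theorem length_clsL_le {K p a b Dl o c0 c1 : ℕ} {D : ℕ → ℕ → ℕ → ℕ → ℕ} {t : ℕ} (hK : 0 < K)
    (ha : a < p) (hb : b < p)
    (hD : ∀ t, ∀ i < K, ∀ u < p, ∀ v < p, D (t + 1) i u v ≤ D t i u v) :
    (clsL a b Dl o c0 c1 (histOf K p D t) t).length * c1 ≤ WD K p a b (D 0) := by
  refine le_trans (le_of_eq ?_) (card_act_mul_le hK ha hb hD Dl o c0 c1 (blk Dl o t))
  congr 1
  rw [clsL_histOf, ← List.toFinset_card_of_nodup (List.nodup_range.filter _)]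
  congr 1
  ext β
  rw [List.mem_toFinset, List.mem_filter, List.mem_range, Finset.mem_filter, Finset.mem_range,
    decide_eq_true_eq]
  rfl

/-- The number of the instance with start block `j1` is at most `WD (D 0) / c1`. -/
theorem rk_mul_le {K p a b Dl o c0 c1 : ℕ} {D : ℕ → ℕ → ℕ → ℕ → ℕ} (hK : 0 < K) (ha : a < p)
    (hb : b < p) (hD : ∀ t, ∀ i < K, ∀ u < p, ∀ v < p, D (t + 1) i u v ≤ D t i u v) (j1 : ℕ) :
    rk (actD K p a b Dl o c0 c1 D) j1 * c1 ≤ WD K p a b (D 0) := by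
  refine le_trans (le_of_eq ?_) (card_act_mul_le hK ha hb hD Dl o c0 c1 j1)
  unfold rk
  rw [← List.toFinset_card_of_nodup (List.nodup_range.filter _)]
  congr 2
  ext β
  rw [List.mem_toFinset, List.mem_filter, List.mem_range, Finset.mem_filter, Finset.mem_range,
    decide_eq_true_eq]
  rfl

/-- If `WD (D 0) < R * c1`, the number of the instance is `< R`. -/
theorem rk_lt {K p a b Dl o c0 c1 R : ℕ} {D : ℕ → ℕ → ℕ → ℕ → ℕ} (hK : 0 < K) (ha : a < p)
    (hb : b < p) (hD : ∀ t, ∀ i < K, ∀ u < p, ∀ v < p, D (t + 1) i u v ≤ D t i u v) (j1 : ℕ)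
    (hR : WD K p a b (D 0) < R * c1) : rk (actD K p a b Dl o c0 c1 D) j1 < R := by
  by_contra h
  have h1 := rk_mul_le (Dl := Dl) (o := o) (c0 := c0) (c1 := c1) hK ha hb hD j1
  have h2 : R * c1 ≤ rk (actD K p a b Dl o c0 c1 D) j1 * c1 := Nat.mul_le_mul_right _ (by omega)
  omega

/-! ### Polynomial time: tables of a function in polynomial time -/

section PT

open Vale.Agent.Lib.PolyTime Vale.Agent.P315.H155

variable {A : Set Word} {α : Type*} [Enc α]

@[fun_prop]
theorem PT_tabOf {K p : α → ℕ} {f : α → ℕ → ℕ → ℕ → ℕ} (hK : PT A K) (hKb : PBd K) (hp : PT A p)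
    (hpb : PBd p) (hf : PT A (fun x : α × ℕ × ℕ × ℕ => f x.1 x.2.1 x.2.2.1 x.2.2.2)) :
    PT A (fun a => tabOf (K a) (p a) (f a)) := by
  unfold tabOf
  refine PT.map (PT.range hK hKb) (f := fun a m => (List.range (p a)).map fun u =>
    (List.range (p a)).map fun v => f a m u v) ?_
  refine PT.map (PT.range (hp.comp PT.fst') (hpb.comp (PT.fst' (A := A))))
    (f := fun (x : α × ℕ) u => (List.range (p x.1)).map fun v => f x.1 x.2 u v) ?_
  refine PT.map (PT.range (hp.comp PT.fst'.fst) (hpb.comp (PT.fst' (A := A)).fst))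
    (f := fun (x : (α × ℕ) × ℕ) v => f x.1.1 x.1.2 x.2 v) ?_
  exact hf.comp (PT.pair PT.fst'.fst.fst (PT.pair PT.fst'.fst.snd (PT.pair PT.fst'.snd PT.snd')))

@[fun_prop]
theorem PT_histOf {K p t : α → ℕ} {D : α → ℕ → ℕ → ℕ → ℕ → ℕ} (hK : PT A K) (hKb : PBd K)
    (hp : PT A p) (hpb : PBd p) (ht : PT A t) (htb : PBd t)
    (hD : PT A (fun x : α × ℕ × ℕ × ℕ × ℕ => D x.1 x.2.1 x.2.2.1 x.2.2.2.1 x.2.2.2.2)) :
    PT A (fun a => histOf (K a) (p a) (D a) (t a)) := by
  unfold histOf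
  refine PT.map (PT.range (PT.add ht (PT.const 1)) (htb.add (PBd.const 1)))
    (f := fun a k => tabOf (K a) (p a) (D a k)) ?_
  refine PT_tabOf (hK.comp PT.fst') (hKb.comp (PT.fst' (A := A))) (hp.comp PT.fst') (hpb.comp (PT.fst' (A := A))) ?_
  exact hD.comp (PT.pair PT.fst'.fst (PT.pair PT.fst'.snd PT.snd'))

end PT

end Vale.Agent.P315.H220
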