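import Vale.Agent.P315.H155.MachW
import Vale.Agent.P315.H804.Inst
import Vale.Agent.P315.Q.LanePT
import Vale.Agent.P315.Q.LabM2

/-!
P315, milestone 2: the lane of the weighted machine is a polynomial time function, in closure
form; locality and labels of the lanes.
-/

set_option autoImplicit false

namespace Vale.Agent.P315.H220

open Vale.Agent.Lib.PolyTime Vale.Agent.P315.H155 Vale.Agent.P315.H801 Vale.Agent.P315.Q
open Vale.Agent.P315.H95 (cl bx ac wd)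

section PT

variable {α : Type} [Enc α]

@[fun_prop]
theorem PT_pW {K g : α → ℕ} {LB : α → List ℕ} (hK : PT ∅ K) (hg : PT ∅ g) (hL : PT ∅ LB) :
    PT ∅ (fun a => pW (K a) (g a) (LB a)) := by
  unfold pW; fun_prop

@[fun_prop]
theorem PBd_pW {K g : α → ℕ} {LB : α → List ℕ} (hK : PBd K) (hg : PBd g) (hL : PT ∅ LB) :
    PBd (fun a => pW (K a) (g a) (LB a)) := by
  unfold pW; fun_prop

@[fun_prop]
theorem PT_posX {K Z g μ B lo n : α → ℕ} (h1 : PT ∅ K) (h2 : PT ∅ Z) (h3 : PT ∅ g)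
    (h4 : PT ∅ μ) (h5 : PT ∅ B) (h6 : PT ∅ lo) (h7 : PT ∅ n) :
    PT ∅ (fun a => posX (K a) (Z a) (g a) (μ a) (B a) (lo a) (n a)) := by
  unfold posX; fun_prop

@[fun_prop]
theorem PT_headD {L : α → List ℕ} (hL : PT ∅ L) : PT ∅ (fun a => (L a).headD 0) :=
  (PT.getD hL (PT.const 0) (PT.const 0)).congr fun a => by cases L a <;> rfl

@[fun_prop]
theorem PT_labX {K g n : α → ℕ} {LB : α → List ℕ} (h1 : PT ∅ K) (h2 : PT ∅ g) (h3 : PT ∅ LB)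
    (h4 : PT ∅ n) : PT ∅ (fun a => labX (K a) (g a) (LB a) (n a)) := by
  unfold labX; fun_prop

theorem PT_nodeW {K Z g μ B lo κ m x y : α → ℕ} {LB : α → List ℕ}
    {D : α → ℕ → ℕ → ℕ → ℕ → ℕ → ℕ}
    (hK : PT ∅ K) (hT : PT ∅ Z) (hg : PT ∅ g) (hμ : PT ∅ μ) (hB : PT ∅ B) (hlo : PT ∅ lo)
    (hL : PT ∅ LB)
    (hD : PT ∅ (fun p : α × ℕ × ℕ × ℕ × ℕ × ℕ =>
      D p.1 p.2.1 p.2.2.1 p.2.2.2.1 p.2.2.2.2.1 p.2.2.2.2.2))
    (hκ : PT ∅ κ) (hm : PT ∅ m) (hx : PT ∅ x) (hy : PT ∅ y) :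
    PT ∅ (fun z => nodeW (K z) (Z z) (g z) (μ z) (B z) (lo z) (LB z) (D z) (κ z) (m z) (x z)
      (y z)) := by
  unfold nodeW
  have h1 : PT ∅ (fun z => D z (κ z) (m z - 1) (labX (K z) (g z) (LB z) (y z))
      (posX (K z) (Z z) (g z) (μ z) (B z) (lo z) (x z))
      (posX (K z) (Z z) (g z) (μ z) (B z) (lo z) (y z))) :=
    hD.comp (PT.id.pair (hκ.pair (PT.pair (by fun_prop) (PT.pair (PT_labX hK hg hL hy)
      (PT.pair (PT_posX hK hT hg hμ hB hlo hx) (PT_posX hK hT hg hμ hB hlo hy))))))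
  have hX := PT_posX hK hT hg hμ hB hlo hx
  have hY := PT_posX hK hT hg hμ hB hlo hy
  refine PT.ite (p := fun z => 1 ≤ m z ∧ m z ≤ K z) (by fun_prop) h1 ?_
  exact PT.mul (PT.const 2) (PT.add (PT.sub hX hY) (PT.sub hY hX))

@[fun_prop]
theorem PT_kxW {wm ca x : α → ℕ} (h1 : PT ∅ wm) (h2 : PT ∅ ca) (h3 : PT ∅ x) :
    PT ∅ (fun a => kxW (wm a) (ca a) (x a)) := by
  unfold kxW; fun_prop

theorem PBd_kxW {wm ca x : α → ℕ} (h1 : PBd wm) : PBd (fun a => kxW (wm a) (ca a) (x a)) := by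
  unfold kxW; exact PBd_min_right h1

theorem PT_wtW {K g wm ca m x y : α → ℕ} {LB : α → List ℕ} (hK : PT ∅ K) (hg : PT ∅ g)
    (hw : PT ∅ wm) (hwb : PBd wm) (hc : PT ∅ ca) (hL : PT ∅ LB) (hm : PT ∅ m)
    (hy : PT ∅ y) :
    PT ∅ (fun a => wtW (K a) (g a) (wm a) (ca a) (LB a) (m a) (x a) (y a)) := by
  unfold wtW
  have hb := PBd_kxW (ca := ca) (x := fun a => labX (K a) (g a) (LB a) (y a)) hwb
  have h1 : PT ∅ (fun a => 2 ^ kxW (wm a) (ca a) (labX (K a) (g a) (LB a) (y a))) :=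
    PT.pow (PT.const 2) (PT_kxW hw hc (PT_labX hK hg hL hy)) hb
  refine PT.ite (p := fun a => 1 ≤ m a ∧ m a ≤ K a) (by fun_prop) h1 (by fun_prop)

theorem PT_rhW {K g wm ca m x y : α → ℕ} {LB : α → List ℕ} (hK : PT ∅ K) (hg : PT ∅ g)
    (hw : PT ∅ wm) (hc : PT ∅ ca) (hL : PT ∅ LB) (hm : PT ∅ m)
    (hy : PT ∅ y) :
    PT ∅ (fun a => rhW (K a) (g a) (wm a) (ca a) (LB a) (m a) (x a) (y a)) := by
  unfold rhW
  have h1 : PT ∅ (fun a => if 1 ≤ m a ∧ m a ≤ K a then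
      kxW (wm a) (ca a) (labX (K a) (g a) (LB a) (y a)) else 0) :=
    PT.ite (p := fun a => 1 ≤ m a ∧ m a ≤ K a) (by fun_prop)
      (PT_kxW hw hc (PT_labX hK hg hL hy)) (by fun_prop)
  have h2 : PT ∅ (fun a => Nat.size (pW (K a) (g a) (LB a))) := PT.natSize (by fun_prop)
  exact PT.add h1 (PT.mul (PT.const 2) h2)

theorem PT_prcW {Sh cap K g wm ca m x y : α → ℕ} {LB : α → List ℕ} (hS : PT ∅ Sh)
    (hcap : PT ∅ cap) (hK : PT ∅ K) (hg : PT ∅ g) (hw : PT ∅ wm) (hwb : PBd wm) (hc : PT ∅ ca)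
    (hL : PT ∅ LB) (hm : PT ∅ m) (hy : PT ∅ y) :
    PT ∅ (fun a => prcW (Sh a) (cap a) (K a) (g a) (wm a) (ca a) (LB a) (m a) (x a) (y a)) := by
  unfold prcW
  exact PT.mul (PT.mul hS hcap) (PT.mul (PT_wtW hK hg hw hwb hc hL hm hy)
    (PT_rhW hK hg hw hc hL hm hy))

theorem PT_storedW {K h wm Z g NL Dl R T Sh Rh C μ B lo q κ ca : α → ℕ} {LB : α → List ℕ}
    {D : α → ℕ → ℕ → ℕ → ℕ → ℕ → ℕ} (hK : PT ∅ K) (hKb : PBd K) (hh : PT ∅ h) (hwm : PT ∅ wm)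
    (hwmb : PBd wm) (hZ : PT ∅ Z) (hg : PT ∅ g) (hgb : PBd g) (hNL : PT ∅ NL) (hDl : PT ∅ Dl)
    (hR : PT ∅ R) (hT : PT ∅ T) (hTb : PBd T) (hSh : PT ∅ Sh) (hRh : PT ∅ Rh) (hRhb : PBd Rh)
    (hC : PT ∅ C) (hμ : PT ∅ μ) (hB : PT ∅ B) (hlo : PT ∅ lo) (hq : PT ∅ q) (hqb : PBd q)
    (hκ : PT ∅ κ) (hκb : PBd κ) (hca : PT ∅ ca) (hL : PT ∅ LB)
    (hD : PT ∅ (fun p : α × ℕ × ℕ × ℕ × ℕ × ℕ =>
      D p.1 p.2.1 p.2.2.1 p.2.2.2.1 p.2.2.2.2.1 p.2.2.2.2.2)) :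
    PT ∅ (fun x => storedW (K x) (h x) (wm x) (Z x) (g x) (NL x) (Dl x) (R x) (T x) (Sh x)
      (Rh x) (C x) (μ x) (B x) (lo x) (q x) (κ x) (ca x) (LB x) (D x)) := by
  have hg2 : PT ∅ (fun x => 2 * g x) := by fun_prop
  have hqL : PT ∅ (fun x => qL (2 * g x) (NL x) (q x)) := PT_qL hg2 hNL hq
  have hqLb : PBd (fun x => qL (2 * g x) (NL x) (q x)) := PBd_qL hqb
  have hqOb : PBd (fun x => qO (2 * g x) (NL x) (Dl x) (q x)) := PBd_qO_of hqb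
  have h2L : PT ∅ (fun x => 2 ^ qL (2 * g x) (NL x) (q x)) := PT.pow (PT.const 2) hqL hqLb
  have h2L1 : PT ∅ (fun x => 2 ^ (qL (2 * g x) (NL x) (q x) + 1)) :=
    PT.pow (PT.const 2) (hqL.add (PT.const 1)) (hqLb.add (PBd.const 1))
  have h2w : PT ∅ (fun x => 2 ^ wm x) := PT.pow (PT.const 2) hwm hwmb
  have hcap : PT ∅ (fun x => cdiv (C x * Z x) (2 ^ qL (2 * g x) (NL x) (q x))) :=
    PT_cdiv (hC.mul hZ) h2L
  have hA : PT ∅ (fun x => tabOf (K x + 2) (pW (K x) (g x) (LB x))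
      (wtW (K x) (g x) (wm x) (ca x) (LB x))) := by
    refine PT_tabOf (f := fun x => wtW (K x) (g x) (wm x) (ca x) (LB x)) (by fun_prop)
      (by fun_prop) (by fun_prop) (by fun_prop) ?_
    exact PT_wtW (hK.comp PT.fst') (hg.comp PT.fst') (hwm.comp PT.fst')
      (hwmb.comp (PT.fst' (A := ∅))) (hca.comp PT.fst') (hL.comp PT.fst') PT.snd'.fst
      PT.snd'.snd.snd
  have hCt : PT ∅ (fun x => tabOf (K x + 2) (pW (K x) (g x) (LB x))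
      (prcW (Sh x) (cdiv (C x * Z x) (2 ^ qL (2 * g x) (NL x) (q x))) (K x) (g x) (wm x) (ca x)
        (LB x))) := by
    refine PT_tabOf (f := fun x => prcW (Sh x)
      (cdiv (C x * Z x) (2 ^ qL (2 * g x) (NL x) (q x))) (K x) (g x) (wm x) (ca x)
        (LB x)) (by fun_prop)
      (by fun_prop) (by fun_prop) (by fun_prop) ?_
    exact PT_prcW (hSh.comp PT.fst') (hcap.comp PT.fst') (hK.comp PT.fst') (hg.comp PT.fst')
      (hwm.comp PT.fst') (hwmb.comp (PT.fst' (A := ∅))) (hca.comp PT.fst') (hL.comp PT.fst')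
      PT.snd'.fst PT.snd'.snd.snd
  have hhist : PT ∅ (fun x => histOf (K x + 2) (pW (K x) (g x) (LB x))
      (nodeW (K x) (Z x) (g x) (μ x) (B x) (lo x) (LB x) (D x)) (κ x)) := by
    refine PT_histOf (D := fun x => nodeW (K x) (Z x) (g x) (μ x) (B x) (lo x) (LB x) (D x))
      (by fun_prop) (by fun_prop) (by fun_prop) (by fun_prop) hκ hκb ?_
    refine PT_nodeW (D := fun z : α × ℕ × ℕ × ℕ × ℕ => D z.1) (by fun_prop) (by fun_prop)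
      (by fun_prop) (by fun_prop) (by fun_prop) (by fun_prop) (by fun_prop) ?_ (by fun_prop)
      (by fun_prop) (by fun_prop) (by fun_prop)
    exact hD.comp (PT.fst'.fst.pair PT.snd')
  unfold storedW
  have ha : PT ∅ (fun x => qA (2 * g x) (q x) * K x) := (PT_qA hg2 hq).mul hK
  have hb : PT ∅ (fun x => min (qB (2 * g x) (q x)) (2 * g x) * K x) :=
    (PT.min (PT_qB hg2 hq) hg2).mul hK
  exact PT_pathsW hSh hRh hRhb h2w hcap hT hTb ha hb hh hDl (PT_qO hg2 hNL hDl hq) hqOb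
    (PT_cdiv (hK.mul hZ) h2L) (PT_cdiv (hK.mul hZ) h2L1) (PT_qR hg2 hNL hDl hR hq) hA hCt hhist
    hκ hκb

/-- **The lane of the weighted machine in closure form.** -/
@[fun_prop]
theorem PT_laneWN {K h wm Z g NL Dl R T Sh Rh C μ B lo q κ ca m : α → ℕ} {LB : α → List ℕ}
    {coin : α → ℕ → ℕ}
    {D : α → ℕ → ℕ → ℕ → ℕ → ℕ → ℕ} (hK : PT ∅ K) (hKb : PBd K) (hh : PT ∅ h) (hwm : PT ∅ wm)
    (hwmb : PBd wm) (hZ : PT ∅ Z) (hg : PT ∅ g) (hgb : PBd g) (hNL : PT ∅ NL) (hDl : PT ∅ Dl)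
    (hR : PT ∅ R) (hT : PT ∅ T) (hTb : PBd T) (hSh : PT ∅ Sh) (hRh : PT ∅ Rh) (hRhb : PBd Rh)
    (hC : PT ∅ C) (hμ : PT ∅ μ) (hB : PT ∅ B) (hlo : PT ∅ lo) (hq : PT ∅ q) (hqb : PBd q)
    (hκ : PT ∅ κ) (hκb : PBd κ) (hca : PT ∅ ca) (hL : PT ∅ LB)
    (hc : PT ∅ (fun p : α × ℕ => coin p.1 p.2))
    (hD : PT ∅ (fun p : α × ℕ × ℕ × ℕ × ℕ × ℕ =>
      D p.1 p.2.1 p.2.2.1 p.2.2.2.1 p.2.2.2.2.1 p.2.2.2.2.2)) (hm : PT ∅ m) :
    PT ∅ (fun x => laneWN (K x) (h x) (wm x) (Z x) (g x) (NL x) (Dl x) (R x) (T x) (Sh x)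
      (Rh x) (C x) (μ x) (B x) (lo x) (q x) (κ x) (ca x) (LB x) (coin x) (D x) (m x)) := by
  have hcoin : PT ∅ (fun x => coin x (qS (2 * g x) (NL x) (Dl x) (R x) (q x))) :=
    hc.comp (PT.id.pair (PT_qS (by fun_prop) hNL hDl hR hq))
  have hst := PT_storedW hK hKb hh hwm hwmb hZ hg hgb hNL hDl hR hT hTb hSh hRh hRhb hC hμ hB
    hlo hq hqb hκ hκb hca hL hD
  have hp1 : PT ∅ (fun x => pW (K x) (g x) (LB x) - 1) := by fun_prop
  have hns : PT ∅ (fun x => (storedW (K x) (h x) (wm x) (Z x) (g x) (NL x) (Dl x) (R x) (T x)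
      (Sh x) (Rh x) (C x) (μ x) (B x) (lo x) (q x) (κ x) (ca x) (LB x) (D x)).getD
        (coin x (qS (2 * g x) (NL x) (Dl x) (R x) (q x)) % T x) []) :=
    PT.getD hst (PT.mod hcoin hT) (PT.const [])
  have hn1 : PT ∅ (fun x => min (((storedW (K x) (h x) (wm x) (Z x) (g x) (NL x) (Dl x) (R x)
      (T x) (Sh x) (Rh x) (C x) (μ x) (B x) (lo x) (q x) (κ x) (ca x) (LB x) (D x)).getD
        (coin x (qS (2 * g x) (NL x) (Dl x) (R x) (q x)) % T x) []).getD (m x + 1) 0)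
          (pW (K x) (g x) (LB x) - 1)) :=
    PT.min (PT.getD hns (PT.add hm (PT.const 1)) (PT.const 0)) hp1
  have hn2 : PT ∅ (fun x => min (((storedW (K x) (h x) (wm x) (Z x) (g x) (NL x) (Dl x) (R x)
      (T x) (Sh x) (Rh x) (C x) (μ x) (B x) (lo x) (q x) (κ x) (ca x) (LB x) (D x)).getD
        (coin x (qS (2 * g x) (NL x) (Dl x) (R x) (q x)) % T x) []).getD (m x + 2) 0)
          (pW (K x) (g x) (LB x) - 1)) :=
    PT.min (PT.getD hns (PT.add hm (PT.const 2)) (PT.const 0)) hp1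
  unfold laneWN pieceWOf pieceW
  exact PT.pair (PT_labX hK hg hL hn2) (PT.pair (PT_posX hK hZ hg hμ hB hlo hn1)
    (PT_posX hK hZ hg hμ hB hlo hn2))

end PT

/-! ### Locality and labels -/

open Vale.Agent.P315.C Vale.Agent.P315.H804

theorem machW_laneLoc (X : MPW) {LB : ℕ → ℕ → List ℕ} (hLB : ∀ s a, LB s a ≠ [])
    (m ℓ μ B w0 J S H Kc D1 : ℕ) :
    LaneLoc (H95.clsPar m ℓ μ B w0 J S H Kc D1) (machW X LB m μ B w0)
      (fun _ s a _ => LB s a) := by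
  intro s q κ j a D D' coin _ _ _ h r _
  exact laneWN_congr (hLB s a) (fun κ' hκ' m' hm' x hx u v hu huB hv hvB =>
    h κ' hκ' m' hm' x hx u v ⟨hu, huB⟩ ⟨hv, hvB⟩) r

theorem machW_laneLab (X : MPW) {LB : ℕ → ℕ → List ℕ} {m ℓ μ B w0 J S H Kc D1 : ℕ}
    (hLB : ∀ s a, LB s a ≠ [])
    (hdesc : ∀ s j a, ∀ x ∈ LB s a, x ∈ (H95.clsPar m ℓ μ B w0 J S H Kc D1).desc j (2 ^ s) a) :
    LaneLab (H95.clsPar m ℓ μ B w0 J S H Kc D1) (machW X LB m μ B w0) := by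
  intro s q κ j a D coin r hj _ hd _ hm
  exact (machOKW X hLB hdesc).label s q κ j a D coin r hj hd hm

/-- Only the labels in `LB` occur on the lanes. -/
theorem machW_mem_LB (X : MPW) {LB : ℕ → ℕ → List ℕ} (hLB : ∀ s a, LB s a ≠ [])
    (m μ B w0 s q κ j a : ℕ) (D : ℕ → ℕ → ℕ → ℕ → ℕ → ℕ) (coin : ℕ → ℕ) (r : ℕ) :
    ((machW X LB m μ B w0).lane s q κ j a D coin r).1 ∈ LB s a :=
  laneWN_label (hLB s a) coin D r

/-- The lane depends on the list of labels of its own region only. -/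
theorem machW_lane_congr_LB (X : MPW) {LB LB' : ℕ → ℕ → List ℕ} {m μ B w0 s q κ j a : ℕ}
    (h : LB s a = LB' s a) (D : ℕ → ℕ → ℕ → ℕ → ℕ → ℕ) (coin : ℕ → ℕ) :
    (machW X LB m μ B w0).lane s q κ j a D coin =
      (machW X LB' m μ B w0).lane s q κ j a D coin := by
  show laneWN _ _ _ _ _ _ _ _ _ _ _ _ _ _ _ _ _ _ (LB s a) _ _ =
    laneWN _ _ _ _ _ _ _ _ _ _ _ _ _ _ _ _ _ _ (LB' s a) _ _
  rw [h]

end Vale.Agent.P315.H220
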