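import Vale.Agent.P315.H801.Mach
import Vale.Agent.P315.H220.WD
import Vale.Agent.P315.C.Struct

/-!
P315: every instance of the machine occurs among the machine numbers; value of the net pair at
round `0`.
-/

set_option autoImplicit false

namespace Vale.Agent.P315.H220

open Vale.Agent.P315.H801

theorem rk_congr {act act' : ℕ → Prop} [DecidablePred act] [DecidablePred act']
    (h : ∀ j, act j ↔ act' j) (j1 : ℕ) : rk act j1 = rk act' j1 := by
  unfold rk
  congr 1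
  exact List.filter_congr fun j _ => by rw [decide_eq_decide]; exact h j

/-- The class predicate of `actQ`, in terms of the components. -/
theorem actQ_iff {K Tu g NL Dl μ B q a : ℕ} {D : ℕ → ℕ → ℕ → ℕ → ℕ → ℕ} {a0 b0 l o : ℕ}
    (h1 : qA g q = a0) (h2 : qB g q = b0) (h3 : qL g NL q = l) (h4 : qO g NL Dl q = o) (j : ℕ) :
    actQ K Tu g NL Dl μ B q a D j ↔
      actD (K + 2) (2 * K * g + 1) (a0 * K) (b0 * K) Dl o
        (cdiv (K * Tu) (2 ^ l)) (cdiv (K * Tu) (2 ^ (l + 1))) (nodeD K Tu g μ B a D) j := by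
  unfold actQ
  rw [h1, h2, h3, h4]

/-- All samples and all instances of the net pair `(a0, b0)`, class `l`, offset `o` occur. -/
theorem exists_q {K Tu g NL Dl R Sm μ B a a0 b0 l o sm : ℕ}
    {D : ℕ → ℕ → ℕ → ℕ → ℕ → ℕ}
    (hD : ∀ κ m x u v, D (κ + 1) m x u v ≤ D κ m x u v) (ha : a0 ≤ g) (hb : b0 ≤ 2 * g)
    (hl : l < NL) (ho : o < Dl) (hs : sm < Sm)
    (hW : WD (K + 2) (2 * K * g + 1) (a0 * K) (b0 * K) (nodeD K Tu g μ B a D 0) <
      R * cdiv (K * Tu) (2 ^ (l + 1))) (j1 : ℕ) :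
    ∃ q, q < cntQ g NL Dl R Sm ∧ qA g q = a0 ∧ qB g q = b0 ∧ qL g NL q = l ∧
      qO g NL Dl q = o ∧ qR g NL Dl R q = rk (actQ K Tu g NL Dl μ B q a D) j1 ∧
      qS g NL Dl R q = sm := by
  have hKa : a0 * K < 2 * K * g + 1 := by
    calc a0 * K ≤ g * K := Nat.mul_le_mul_right _ ha
      _ ≤ 2 * (K * g) := by rw [Nat.mul_comm g K]; omega
      _ = 2 * K * g := by ring
      _ < 2 * K * g + 1 := Nat.lt_succ_self _
  have hKb : b0 * K < 2 * K * g + 1 := by
    calc b0 * K ≤ 2 * g * K := Nat.mul_le_mul_right _ hb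
      _ = 2 * K * g := by ring
      _ < 2 * K * g + 1 := Nat.lt_succ_self _
  set act := actD (K + 2) (2 * K * g + 1) (a0 * K) (b0 * K) Dl o
    (cdiv (K * Tu) (2 ^ l)) (cdiv (K * Tu) (2 ^ (l + 1))) (nodeD K Tu g μ B a D) with hact
  have hr : rk act j1 < R := rk_lt (Nat.succ_pos _) hKa hKb
    (fun t i _ u _ v _ => nodeD_anti hD t i u v) j1 hW
  obtain ⟨h1, h2, h3, h4, h5, h6⟩ := dec_enc (g := g) (NL := NL) (Dl := Dl) (R := R)
    (sm := sm) ha hb hl ho hr
  refine ⟨encQ g NL Dl R a0 b0 l o (rk act j1) sm, enc_lt ha hb hl ho hr hs, h1, h2, h3, h4,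
    ?_, h6⟩
  rw [h5]
  exact rk_congr (fun j => (actQ_iff h1 h2 h3 h4 j).symm) j1

/-! ### Positions of the nodes -/

theorem posN_mono {μ B lo Tu g x y : ℕ} (h : x ≤ y) :
    posN μ B lo Tu g x ≤ posN μ B lo Tu g y := by
  unfold posN
  have h1 : x * Tu / g ≤ y * Tu / g := Nat.div_le_div_right (Nat.mul_le_mul_right _ h)
  have h2 : (lo + x * Tu / g) / μ ≤ (lo + y * Tu / g) / μ := Nat.div_le_div_right (by omega)
  exact Nat.mul_le_mul_left _ (min_le_min_right _ h2)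

/-- `g` nodes further: at most one unit length further. -/
theorem posN_add_g {μ B lo Tu g x : ℕ} (hg : 0 < g) (hT : μ ∣ Tu) :
    posN μ B lo Tu g (x + g) ≤ posN μ B lo Tu g x + Tu := by
  rcases Nat.eq_zero_or_pos μ with rfl | hμ
  · unfold posN; simp
  obtain ⟨c, rfl⟩ := hT
  unfold posN
  have h1 : (x + g) * (μ * c) / g = x * (μ * c) / g + μ * c := by
    rw [add_mul, Nat.add_mul_div_left _ _ hg]
  have h2 : (lo + (x + g) * (μ * c) / g) / μ = (lo + x * (μ * c) / g) / μ + c := by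
    rw [h1, ← add_assoc, Nat.add_mul_div_left _ _ hμ]
  rw [h2]
  set y := (lo + x * (μ * c) / g) / μ
  have h3 : min (y + c) (B / μ) ≤ min y (B / μ) + c := by omega
  calc μ * min (y + c) (B / μ) ≤ μ * (min y (B / μ) + c) := Nat.mul_le_mul_left _ h3
    _ = μ * min y (B / μ) + μ * c := by ring

theorem posN_step {μ B lo Tu g x y : ℕ} (hg : 0 < g) (hT : μ ∣ Tu) (h : y ≤ x + g) :
    posN μ B lo Tu g y ≤ posN μ B lo Tu g x + Tu :=
  (posN_mono h).trans (posN_add_g hg hT)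

theorem mesh_aux {μ y y' c b : ℕ} (h : μ * y' ≤ μ * y + c) :
    μ * min y' b ≤ μ * min y b + c := by
  rcases Nat.le_total y b with h6 | h6
  · rw [min_eq_left h6]
    exact (Nat.mul_le_mul_left _ (min_le_left _ _)).trans h
  · rw [min_eq_right h6]
    exact (Nat.mul_le_mul_left _ (min_le_right _ _)).trans (Nat.le_add_right _ _)

/-- `d` nodes further. -/
theorem posN_add_le {μ B lo Tu g x d : ℕ} :
    posN μ B lo Tu g (x + d) ≤ posN μ B lo Tu g x + (d * Tu / g + 1 + μ) := by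
  rcases Nat.eq_zero_or_pos μ with rfl | hμ
  · unfold posN; simp
  unfold posN
  refine mesh_aux ?_
  have h1 : (x + d) * Tu / g ≤ x * Tu / g + d * Tu / g + 1 := by
    rcases Nat.eq_zero_or_pos g with rfl | hg
    · simp
    rw [add_mul]
    have h2 : (x * Tu + d * Tu) / g < x * Tu / g + d * Tu / g + 2 := by
      rw [Nat.div_lt_iff_lt_mul hg]
      have e1 := Nat.lt_div_mul_add (a := x * Tu) hg
      have e2 := Nat.lt_div_mul_add (a := d * Tu) hg
      have e3 : (x * Tu / g + d * Tu / g + 2) * g = x * Tu / g * g + g + (d * Tu / g * g + g) := by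
        ring
      omega
    omega
  generalize (x + d) * Tu / g = A at *
  generalize x * Tu / g = A' at *
  generalize d * Tu / g = A'' at *
  have h2 : (lo + A) / μ * μ ≤ lo + A := Nat.div_mul_le_self _ _
  have h3 := Nat.lt_div_mul_add (a := lo + A') hμ
  rw [Nat.mul_comm μ, Nat.mul_comm μ]
  omega

/-! ### The value at round `0` -/

/-- The straight path: shift down to the exit if necessary, then climb. -/
def straight (A0 B0 g i : ℕ) : ℕ := if i = 0 then A0 else min (A0 + (i - 1) * g) B0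

/-- **Value of the net pair in any round in which the units cost at most their length**
(`A0`, `B0` arbitrary nodes). -/
theorem wd_le_visible {K Tu g μ B a A0 B0 κ : ℕ} {D : ℕ → ℕ → ℕ → ℕ → ℕ → ℕ} (hg : 0 < g)
    (hT : μ ∣ Tu)
    (h0 : ∀ m < K, ∀ x u v, μ ∣ u → μ ∣ v → v ≤ B → u ≤ v → v ≤ u + Tu → D κ m x u v ≤ Tu)
    (hA : A0 < 2 * K * g + 1) (hB : B0 < 2 * K * g + 1) :
    WD (K + 2) (2 * K * g + 1) A0 B0 (nodeD K Tu g μ B a D κ) ≤
      K * Tu + 2 * (posN μ B (a * (K * Tu)) Tu g A0 - posN μ B (a * (K * Tu)) Tu g B0) +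
      2 * (posN μ B (a * (K * Tu)) Tu g B0 - posN μ B (a * (K * Tu)) Tu g (A0 + K * g)) := by
  set ps := posN μ B (a * (K * Tu)) Tu g with hps
  set f : ℕ → ℕ := fun i => if i = K + 2 then B0 else straight A0 B0 g i with hf
  have f0 : f 0 = A0 := by
    show (if 0 = K + 2 then B0 else straight A0 B0 g 0) = A0
    rw [if_neg (by omega)]
    simp [straight]
  have fK : f (K + 2) = B0 := by simp [hf]
  have fi : ∀ i, 1 ≤ i → i ≤ K + 1 → f i = min (A0 + (i - 1) * g) B0 := by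
    intro i h1 h2
    show (if i = K + 2 then B0 else straight A0 B0 g i) = _
    rw [if_neg (by omega)]
    unfold straight
    rw [if_neg (by omega)]
  have hlt : ∀ i ≤ K + 2, f i < 2 * K * g + 1 := by
    intro i hi
    rcases Nat.eq_zero_or_pos i with rfl | h1
    · rw [f0]; exact hA
    rcases Nat.lt_or_ge (K + 1) i with h2 | h2
    · obtain rfl : i = K + 2 := by omega
      rw [fK]; exact hB
    · rw [fi i h1 h2]
      exact lt_of_le_of_lt (min_le_right _ _) hB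
  refine ((wd_spec (nodeD K Tu g μ B a D κ) (Nat.succ_pos _) hA hB).2 f f0 fK hlt).trans ?_
  -- split off the first and the last row
  rw [Finset.sum_range_succ, Finset.sum_range_succ']
  have hrow0 : nodeD K Tu g μ B a D κ 0 (f 0) (f (0 + 1)) = 2 * (ps A0 - ps B0) := by
    unfold nodeD
    rw [if_neg (by omega), f0, fi 1 le_rfl (by omega)]
    simp only [Nat.sub_self, zero_mul, add_zero]
    rw [← hps]
    rcases Nat.le_total A0 B0 with h | h
    · rw [min_eq_left h]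
      have := posN_mono (μ := μ) (B := B) (lo := a * (K * Tu)) (Tu := Tu) (g := g) h
      rw [← hps] at this
      omega
    · rw [min_eq_right h]
      have := posN_mono (μ := μ) (B := B) (lo := a * (K * Tu)) (Tu := Tu) (g := g) h
      rw [← hps] at this
      omega
  have hrowK : nodeD K Tu g μ B a D κ (K + 1) (f (K + 1)) (f (K + 1 + 1)) =
      2 * (ps B0 - ps (A0 + K * g)) := by
    unfold nodeD
    rw [if_neg (by omega), show K + 1 + 1 = K + 2 from rfl, fK, fi (K + 1) (by omega) le_rfl]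
    simp only [Nat.add_sub_cancel]
    rw [← hps]
    rcases Nat.le_total (A0 + K * g) B0 with h | h
    · rw [min_eq_left h]
      have := posN_mono (μ := μ) (B := B) (lo := a * (K * Tu)) (Tu := Tu) (g := g) h
      rw [← hps] at this
      omega
    · rw [min_eq_right h]
      have := posN_mono (μ := μ) (B := B) (lo := a * (K * Tu)) (Tu := Tu) (g := g) h
      rw [← hps] at this
      omega
  have hrows : ∑ i ∈ Finset.range K, nodeD K Tu g μ B a D κ (i + 1) (f (i + 1)) (f (i + 1 + 1)) ≤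
      K * Tu := by
    calc ∑ i ∈ Finset.range K, nodeD K Tu g μ B a D κ (i + 1) (f (i + 1)) (f (i + 1 + 1))
        ≤ ∑ _i ∈ Finset.range K, Tu := by
          refine Finset.sum_le_sum fun i hi => ?_
          have hi' := Finset.mem_range.1 hi
          rw [fi (i + 1) (by omega) (by omega), fi (i + 1 + 1) (by omega) (by omega)]
          simp only [Nat.add_sub_cancel]
          unfold nodeD
          rw [if_pos ⟨by omega, by omega⟩]
          refine h0 _ (by omega) _ _ _ (dvd_posN _ _ _ _ _ _) (dvd_posN _ _ _ _ _ _)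
            (posN_le _ _ _ _ _ _) (posN_mono ?_) (posN_step hg hT ?_)
          · have : (i + 1) * g = i * g + g := by ring
            omega
          · have : (i + 1) * g = i * g + g := by ring
            omega
      _ = K * Tu := by simp
  rw [hrow0, hrowK]
  omega

/-- The value of a net pair `(a0, b0)` with `a0 ≤ b0 ≤ a0 + g + 1`. -/
theorem wd_le_pair {K Tu g μ B a a0 b0 κ : ℕ} {D : ℕ → ℕ → ℕ → ℕ → ℕ → ℕ} (hg : 0 < g)
    (hT : μ ∣ Tu)
    (h0 : ∀ m < K, ∀ x u v, μ ∣ u → μ ∣ v → v ≤ B → u ≤ v → v ≤ u + Tu → D κ m x u v ≤ Tu)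
    (ha : a0 ≤ g) (hb : b0 ≤ 2 * g) (hab : a0 ≤ b0) (hab' : b0 ≤ a0 + g + 1) :
    WD (K + 2) (2 * K * g + 1) (a0 * K) (b0 * K) (nodeD K Tu g μ B a D κ) ≤
      K * Tu + 2 * (K * Tu / g + 1 + μ) := by
  have hKa : a0 * K < 2 * K * g + 1 := by
    calc a0 * K ≤ g * K := Nat.mul_le_mul_right _ ha
      _ ≤ 2 * (K * g) := by rw [Nat.mul_comm g K]; omega
      _ = 2 * K * g := by ring
      _ < 2 * K * g + 1 := Nat.lt_succ_self _
  have hKb : b0 * K < 2 * K * g + 1 := by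
    calc b0 * K ≤ 2 * g * K := Nat.mul_le_mul_right _ hb
      _ = 2 * K * g := by ring
      _ < 2 * K * g + 1 := Nat.lt_succ_self _
  refine (wd_le_visible hg hT h0 hKa hKb).trans ?_
  have h1 : posN μ B (a * (K * Tu)) Tu g (a0 * K) ≤ posN μ B (a * (K * Tu)) Tu g (b0 * K) :=
    posN_mono (Nat.mul_le_mul_right _ hab)
  have h2 : posN μ B (a * (K * Tu)) Tu g (b0 * K) ≤
      posN μ B (a * (K * Tu)) Tu g (a0 * K + K * g) + (K * Tu / g + 1 + μ) := by
    have h3 : b0 * K ≤ a0 * K + K * g + K := by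
      calc b0 * K ≤ (a0 + g + 1) * K := Nat.mul_le_mul_right _ hab'
        _ = a0 * K + K * g + K := by ring
    exact (posN_mono h3).trans posN_add_le
  omega

/-- `R` instances are enough: `2 ^ (l + 3) ≤ R`. -/
theorem wd_lt_of_R {K Tu g μ l R w : ℕ} (hR : 2 ^ (l + 3) ≤ R) (hKT : 0 < K * Tu)
    (hw : w ≤ K * Tu + 2 * (K * Tu / g + 1 + μ)) (hg : 2 ≤ g) (hμ : 1 + μ ≤ K * Tu / 2) :
    w < R * cdiv (K * Tu) (2 ^ (l + 1)) := by
  have h1 : K * Tu ≤ 2 ^ (l + 1) * cdiv (K * Tu) (2 ^ (l + 1)) := by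
    unfold cdiv
    have hp : 0 < 2 ^ (l + 1) := by positivity
    have := Nat.lt_div_mul_add (a := K * Tu + 2 ^ (l + 1) - 1) hp
    rw [Nat.mul_comm (2 ^ (l + 1))]
    omega
  have h2 : 2 ^ (l + 3) * cdiv (K * Tu) (2 ^ (l + 1)) ≤ R * cdiv (K * Tu) (2 ^ (l + 1)) :=
    Nat.mul_le_mul_right _ hR
  have h3 : 2 ^ (l + 3) * cdiv (K * Tu) (2 ^ (l + 1)) =
      4 * (2 ^ (l + 1) * cdiv (K * Tu) (2 ^ (l + 1))) := by
    rw [show l + 3 = (l + 1) + 2 from rfl, pow_add]; ring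
  have h4 : K * Tu / g ≤ K * Tu / 2 := Nat.div_le_div_left hg (by norm_num)
  omega

/-! ### The additive geometry -/

section box

open Vale.Agent.P315.C

variable {M ℓ μ B J S H : ℕ} {vis hid : Leaf}

/-- A mesh pair whose displacement is at most the length of the slab costs at most the length,
whatever has been read. -/
theorem cval_le_T (hμℓ : μ ∣ ℓ)
    (hle : ∀ i p q, p ≤ q → q ≤ p + ℓ → hid i p q ≤ vis i p q)
    (hv : ∀ i p q, p ≤ q → q ≤ p + ℓ → vis i p q ≤ ℓ) (R : Finset (ℕ × ℕ)) (j i : ℕ) {u v : ℕ}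
    (hu : μ ∣ u) (hv' : μ ∣ v) (h1 : u ≤ v) (h2 : v ≤ u + ℓ * M ^ j) (hB : v ≤ B) :
    cval (boxPar M ℓ μ B J S H) vis hid R j i u v ≤ ℓ * M ^ j := by
  set P := boxPar M ℓ μ B J S H with hP
  set w : ℕ → ℕ := fun r => min (u + r * ℓ) v with hw
  have w0 : w 0 = u := by simp [hw, h1]
  have wN : w (P.M ^ j) = v := by
    show min (u + M ^ j * ℓ) v = v
    rw [Nat.mul_comm (M ^ j)]
    exact min_eq_right h2
  have hstep : ∀ r, w r ≤ w (r + 1) ∧ w (r + 1) ≤ w r + ℓ := by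
    intro r
    have : (r + 1) * ℓ = r * ℓ + ℓ := by ring
    simp only [hw]
    omega
  have hmesh : ∀ r, μ ∣ w r := by
    intro r
    simp only [hw]
    rcases Nat.le_total (u + r * ℓ) v with h | h
    · rw [min_eq_left h]; exact (Nat.dvd_add_right hu).2 (hμℓ.mul_left r)
    · rw [min_eq_right h]; exact hv'
  have hwB : ∀ r, w r ≤ B := fun r => (min_le_right _ _).trans hB
  have hr : P.RouteOK (P.M ^ j) fun m => (w m, w (m + 1)) := by
    intro r _
    exact ⟨hmesh r, hmesh (r + 1), hwB r, hwB (r + 1), hstep r⟩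
  have h3 := H140.best_le_rcost (P := P) (f := known P vis hid R) (i * P.M ^ j) (P.M ^ j) u v _ hr
  have h4 := rcost_path P.sh (P.M ^ j) (fun r => known P vis hid R (i * P.M ^ j + r)) w
  rw [w0, wN] at h4
  rw [h4] at h3
  refine h3.trans ?_
  calc ∑ r ∈ Finset.range (P.M ^ j), known P vis hid R (i * P.M ^ j + r) (w r) (w (r + 1))
      ≤ ∑ _r ∈ Finset.range (P.M ^ j), ℓ := by
        refine Finset.sum_le_sum fun r _ => ?_
        obtain ⟨e1, e2⟩ := hstep r
        exact (known_le_vis R (hle _ _ _ e1 e2)).trans (hv _ _ _ e1 e2)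
    _ = ℓ * M ^ j := by
        show _ = ℓ * P.M ^ j
        rw [Finset.sum_const, Finset.card_range, smul_eq_mul, Nat.mul_comm]

/-- **Value of the net pair of `P*` in every round** of a region of level `j`. -/
theorem wd_hist_le {s g a0 b0 κ a i j : ℕ} {ω : Rnd} {rd : ℕ → RSet} (hμℓ : μ ∣ ℓ)
    (hle : ∀ i p q, p ≤ q → q ≤ p + ℓ → hid i p q ≤ vis i p q)
    (hv : ∀ i p q, p ≤ q → q ≤ p + ℓ → vis i p q ≤ ℓ) (hg : 0 < g)
    (ha : a0 ≤ g) (hb : b0 ≤ 2 * g) (hab : a0 ≤ b0) (hab' : b0 ≤ a0 + g + 1) :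
    WD (M ^ 2 ^ s + 2) (2 * M ^ 2 ^ s * g + 1) (a0 * M ^ 2 ^ s) (b0 * M ^ 2 ^ s)
        (nodeD (M ^ 2 ^ s) (ℓ * M ^ (j - 2 ^ s)) g μ B a
          (hist (boxPar M ℓ μ B J S H) ω vis hid rd j i a s) κ) ≤
      M ^ 2 ^ s * (ℓ * M ^ (j - 2 ^ s)) +
        2 * (M ^ 2 ^ s * (ℓ * M ^ (j - 2 ^ s)) / g + 1 + μ) := by
  refine wd_le_pair hg (Dvd.dvd.mul_right hμℓ _) ?_ ha hb hab hab'
  intro m _ x u v hu hv' hB h1 h2
  exact cval_le_T hμℓ hle hv _ _ _ hu hv' h1 h2 hB

/-- **Every instance of the net pair of `P*` has machine numbers**, one for every sample. -/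
theorem exists_q_hist {s g NL Dl R Sm a0 b0 l o sm a i j : ℕ} {ω : Rnd} {rd : ℕ → RSet}
    (hanti : ∀ κ m x u v, hist (boxPar M ℓ μ B J S H) ω vis hid rd j i a s (κ + 1) m x u v ≤
      hist (boxPar M ℓ μ B J S H) ω vis hid rd j i a s κ m x u v) (hμℓ : μ ∣ ℓ)
    (hle : ∀ i p q, p ≤ q → q ≤ p + ℓ → hid i p q ≤ vis i p q)
    (hv : ∀ i p q, p ≤ q → q ≤ p + ℓ → vis i p q ≤ ℓ) (hg : 2 ≤ g)
    (ha : a0 ≤ g) (hb : b0 ≤ 2 * g) (hab : a0 ≤ b0) (hab' : b0 ≤ a0 + g + 1) (hl : l < NL)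
    (ho : o < Dl) (hs : sm < Sm) (hR : 2 ^ (l + 3) ≤ R)
    (hT : 0 < M ^ 2 ^ s * (ℓ * M ^ (j - 2 ^ s)))
    (hμ : 1 + μ ≤ M ^ 2 ^ s * (ℓ * M ^ (j - 2 ^ s)) / 2) (j1 : ℕ) :
    ∃ q, q < cntQ g NL Dl R Sm ∧ qA g q = a0 ∧ qB g q = b0 ∧ qL g NL q = l ∧
      qO g NL Dl q = o ∧ qR g NL Dl R q =
        rk (actQ (M ^ 2 ^ s) (ℓ * M ^ (j - 2 ^ s)) g NL Dl μ B q a
          (hist (boxPar M ℓ μ B J S H) ω vis hid rd j i a s)) j1 ∧
      qS g NL Dl R q = sm := by
  refine exists_q hanti ha hb hl ho hs ?_ j1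
  exact wd_lt_of_R hR hT (wd_hist_le hμℓ hle hv (by omega) ha hb hab hab') hg hμ

end box

end Vale.Agent.P315.H220
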