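import Vale.Agent.P315.H155.MachW
import Vale.Agent.P315.H220.Inst

/-!
P315, milestone 2: every instance of the weighted machine occurs among the machine numbers.
-/

set_option autoImplicit false

namespace Vale.Agent.P315.H220

open Vale.Agent.P315.H801 Vale.Agent.P315.H155

/-- The class predicate of `actW`, in terms of the components. -/
theorem actW_iff {K Z g NL Dl μ B lo q : ℕ} {LB : List ℕ} {D : ℕ → ℕ → ℕ → ℕ → ℕ → ℕ}
    {a0 b0 l o : ℕ}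
    (h1 : qA (2 * g) q = a0) (h2 : min (qB (2 * g) q) (2 * g) = b0) (h3 : qL (2 * g) NL q = l)
    (h4 : qO (2 * g) NL Dl q = o) (j : ℕ) :
    actW K Z g NL Dl μ B lo q LB D j ↔
      actD (K + 2) (pW K g LB) (a0 * K) (b0 * K) Dl o
        (cdiv (K * Z) (2 ^ l)) (cdiv (K * Z) (2 ^ (l + 1))) (nodeW K Z g μ B lo LB D) j := by
  unfold actW
  rw [h1, h2, h3, h4]

theorem node_lt_pW {K g c : ℕ} {LB : List ℕ} (hLB : LB ≠ []) (hc : c ≤ 2 * g) :
    c * K < pW K g LB := by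
  refine lt_of_lt_of_le ?_ (le_pW hLB)
  calc c * K ≤ 2 * g * K := Nat.mul_le_mul_right _ hc
    _ = 2 * K * g := by ring
    _ < 2 * K * g + 1 := Nat.lt_succ_self _

/-- The number of the class blocks before `j1`, times `c1`, is at most the decrease of the value
up to the block `j1`. -/
theorem rk_mul_add_le {K p a b Dl o c0 c1 : ℕ} {D : ℕ → ℕ → ℕ → ℕ → ℕ} (hK : 0 < K) (ha : a < p)
    (hb : b < p) (hD : ∀ t, ∀ i < K, ∀ u < p, ∀ v < p, D (t + 1) i u v ≤ D t i u v) (j1 : ℕ) :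
    rk (actD K p a b Dl o c0 c1 D) j1 * c1 + WD K p a b (D (blo Dl o j1)) ≤
      WD K p a b (D 0) := by
  refine le_trans (le_of_eq ?_) (card_drop_mul_le (V := fun t => WD K p a b (D t))
    (wd_anti hK ha hb hD) Dl o c1 j1 (actD K p a b Dl o c0 c1 D) fun β h => h.1)
  congr 2

/-- If the value decreases by less than `R * c1` in total, the number of the instance is `< R`. -/
theorem rk_lt_of_drop {K p a b Dl o c0 c1 R : ℕ} {D : ℕ → ℕ → ℕ → ℕ → ℕ} (hK : 0 < K)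
    (ha : a < p)
    (hb : b < p) (hD : ∀ t, ∀ i < K, ∀ u < p, ∀ v < p, D (t + 1) i u v ≤ D t i u v) (j1 : ℕ)
    (hR : ∀ t, WD K p a b (D 0) < WD K p a b (D t) + R * c1) :
    rk (actD K p a b Dl o c0 c1 D) j1 < R := by
  by_contra h
  have h1 := rk_mul_add_le (Dl := Dl) (o := o) (c0 := c0) (c1 := c1) hK ha hb hD j1
  have h2 : R * c1 ≤ rk (actD K p a b Dl o c0 c1 D) j1 * c1 := Nat.mul_le_mul_right _ (by omega)
  have h3 := hR (blo Dl o j1)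
  omega

/-- All samples and all instances of the net pair `(a0, b0)`, class `l`, offset `o` occur, if the
value of the net pair decreases by less than `R * c1` in total. -/
theorem exists_qW {K Z g NL Dl R Sm μ B lo a0 b0 l o sm : ℕ} {LB : List ℕ} (hLB : LB ≠ [])
    {D : ℕ → ℕ → ℕ → ℕ → ℕ → ℕ}
    (hD : ∀ κ m x u v, D (κ + 1) m x u v ≤ D κ m x u v) (ha : a0 ≤ 2 * g) (hb : b0 ≤ 2 * g)
    (hl : l < NL) (ho : o < Dl) (hs : sm < Sm)
    (hW : ∀ t, WD (K + 2) (pW K g LB) (a0 * K) (b0 * K) (nodeW K Z g μ B lo LB D 0) <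
      WD (K + 2) (pW K g LB) (a0 * K) (b0 * K) (nodeW K Z g μ B lo LB D t) +
        R * cdiv (K * Z) (2 ^ (l + 1))) (j1 : ℕ) :
    ∃ q, q < cntQ (2 * g) NL Dl R Sm ∧ qA (2 * g) q = a0 ∧ min (qB (2 * g) q) (2 * g) = b0 ∧
      qL (2 * g) NL q = l ∧ qO (2 * g) NL Dl q = o ∧
      qR (2 * g) NL Dl R q = rk (actW K Z g NL Dl μ B lo q LB D) j1 ∧
      qS (2 * g) NL Dl R q = sm := by
  set act := actD (K + 2) (pW K g LB) (a0 * K) (b0 * K) Dl o
    (cdiv (K * Z) (2 ^ l)) (cdiv (K * Z) (2 ^ (l + 1))) (nodeW K Z g μ B lo LB D) with hact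
  have hr : rk act j1 < R := rk_lt_of_drop (Nat.succ_pos _) (node_lt_pW hLB ha)
    (node_lt_pW hLB hb)
    (fun t i _ u _ v _ => nodeW_anti hD t i u v) j1 hW
  obtain ⟨h1, h2, h3, h4, h5, h6⟩ := dec_enc (g := 2 * g) (NL := NL) (Dl := Dl) (R := R)
    (sm := sm) ha (show b0 ≤ 2 * (2 * g) by omega) hl ho hr
  have h2' : min (qB (2 * g) (encQ (2 * g) NL Dl R a0 b0 l o (rk act j1) sm)) (2 * g) = b0 := by
    rw [h2]; exact min_eq_left hb
  refine ⟨encQ (2 * g) NL Dl R a0 b0 l o (rk act j1) sm,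
    enc_lt ha (show b0 ≤ 2 * (2 * g) by omega) hl ho hr hs, h1, h2', h3, h4, ?_, h6⟩
  rw [h5]
  exact rk_congr (fun j => (actW_iff h1 h2' h3 h4 j).symm) j1

/-- A decrease `≤ 3 K Z` is small enough for `R ≥ 2 ^ (l + 3)` instances. -/
theorem lt_of_le_three {X l R w w' : ℕ} (hR : 2 ^ (l + 3) ≤ R) (hX : 0 < X)
    (hw : w ≤ w' + 3 * X) : w < w' + R * cdiv X (2 ^ (l + 1)) := by
  have h1 : X ≤ 2 ^ (l + 1) * cdiv X (2 ^ (l + 1)) := by
    unfold cdiv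
    have hp : 0 < 2 ^ (l + 1) := by positivity
    have := Nat.lt_div_mul_add (a := X + 2 ^ (l + 1) - 1) hp
    rw [Nat.mul_comm (2 ^ (l + 1))]
    omega
  have h2 : 2 ^ (l + 3) * cdiv X (2 ^ (l + 1)) ≤ R * cdiv X (2 ^ (l + 1)) :=
    Nat.mul_le_mul_right _ hR
  have h3 : 2 ^ (l + 3) * cdiv X (2 ^ (l + 1)) = 4 * (2 ^ (l + 1) * cdiv X (2 ^ (l + 1))) := by
    rw [show l + 3 = (l + 1) + 2 from rfl, pow_add]; ring
  omega

/-- The two lemmas together: the value of the net pair decreases by at most `3 K Z`. -/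
theorem exists_qW' {K Z g NL Dl R Sm μ B lo a0 b0 l o sm : ℕ} {LB : List ℕ} (hLB : LB ≠ [])
    {D : ℕ → ℕ → ℕ → ℕ → ℕ → ℕ}
    (hD : ∀ κ m x u v, D (κ + 1) m x u v ≤ D κ m x u v) (ha : a0 ≤ 2 * g) (hb : b0 ≤ 2 * g)
    (hl : l < NL) (ho : o < Dl) (hs : sm < Sm) (hR : 2 ^ (l + 3) ≤ R) (hKZ : 0 < K * Z)
    (hW : ∀ t, WD (K + 2) (pW K g LB) (a0 * K) (b0 * K) (nodeW K Z g μ B lo LB D 0) ≤
      WD (K + 2) (pW K g LB) (a0 * K) (b0 * K) (nodeW K Z g μ B lo LB D t) + 3 * (K * Z))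
    (j1 : ℕ) :
    ∃ q, q < cntQ (2 * g) NL Dl R Sm ∧ qA (2 * g) q = a0 ∧ min (qB (2 * g) q) (2 * g) = b0 ∧
      qL (2 * g) NL q = l ∧ qO (2 * g) NL Dl q = o ∧
      qR (2 * g) NL Dl R q = rk (actW K Z g NL Dl μ B lo q LB D) j1 ∧
      qS (2 * g) NL Dl R q = sm :=
  exists_qW hLB hD ha hb hl ho hs (fun t => lt_of_le_three hR hKZ (hW t)) j1

/-- The value of the net pair is at most the cost of any node path. -/
theorem wd_le_nodes {K Z g μ B lo a0 b0 κ : ℕ} {LB : List ℕ} (hLB : LB ≠ [])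
    {D : ℕ → ℕ → ℕ → ℕ → ℕ → ℕ} (ha : a0 ≤ 2 * g) (hb : b0 ≤ 2 * g) (f : ℕ → ℕ)
    (f0 : f 0 = a0 * K) (fK : f (K + 2) = b0 * K) (hf : ∀ i ≤ K + 2, f i < pW K g LB) :
    WD (K + 2) (pW K g LB) (a0 * K) (b0 * K) (nodeW K Z g μ B lo LB D κ) ≤
      ∑ i ∈ Finset.range (K + 2), nodeW K Z g μ B lo LB D κ i (f i) (f (i + 1)) :=
  (wd_spec _ (Nat.succ_pos _) (node_lt_pW hLB ha) (node_lt_pW hLB hb)).2 f f0 fK hf

end Vale.Agent.P315.H220
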